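import Vale.Agent.P075.Bound

/-!
# P075: from the array inequality to the form, part 2
-/

open MeasureTheory Set Finset

namespace Vale.Agent.P075.Dy

/-- the third index is the XOR of the first two -/
def xe : ℕ × ℕ ≃ XorTriple where
  toFun p := ⟨(p.1, p.2, p.1 ^^^ p.2), by
    show p.1 ^^^ p.2 ^^^ (p.1 ^^^ p.2) = 0
    exact Nat.xor_self _⟩
  invFun n := (n.1.1, n.1.2.1)
  left_inv p := rfl
  right_inv n := by
    obtain ⟨⟨a, b, c⟩, h⟩ := n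
    have h' : (a ^^^ b) ^^^ c = 0 := h
    have h2 : c = a ^^^ b := by
      have h3 := Nat.xor_xor_cancel_left (a ^^^ b) c
      rw [h', Nat.xor_zero] at h3
      exact h3.symm
    subst h2
    rfl

theorem Adm.vanish {F : ℝ × ℝ → ℝ} (hF : Adm F) :
    ∃ R : ℝ, ∀ x : ℝ × ℝ, (R < x.1 ∨ R < x.2) → F x = 0 := by
  obtain ⟨R, hR⟩ := hF.supp.isCompact.isBounded.subset_closedBall (0 : ℝ × ℝ)
  refine ⟨R, fun x hx => ?_⟩
  by_contra h
  have h1 : x ∈ tsupport F := subset_tsupport F (Function.mem_support.2 h)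
  have h2 := hR h1
  rw [mem_closedBall_zero_iff] at h2
  rcases hx with hx | hx
  · have h3 : ‖x.1‖ ≤ ‖x‖ := norm_fst_le x
    rw [Real.norm_eq_abs] at h3
    linarith [le_abs_self x.1]
  · have h3 : ‖x.2‖ ≤ ‖x‖ := norm_snd_le x
    rw [Real.norm_eq_abs] at h3
    linarith [le_abs_self x.2]

theorem LForm_zero {F₀ F₁ F₂ : ℝ × ℝ → ℝ} {R : ℝ}
    (h0 : ∀ x : ℝ × ℝ, (R < x.1 ∨ R < x.2) → F₀ x = 0)
    (h1 : ∀ x : ℝ × ℝ, (R < x.1 ∨ R < x.2) → F₁ x = 0) (k : ℤ) (n : ℕ × ℕ × ℕ)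
    (h : R < (2 : ℝ) ^ k * n.1 ∨ R < (2 : ℝ) ^ k * n.2.1 ∨ R < (2 : ℝ) ^ k * n.2.2) :
    LForm k n F₀ F₁ F₂ = 0 := by
  unfold LForm
  rw [setIntegral_eq_zero_of_forall_eq_zero, mul_zero]
  rintro x ⟨g1, g2, g3⟩
  rcases h with h | h | h
  · rw [h0 (x.1, x.2.1) (Or.inl (lt_of_lt_of_le h g1.1))]
    ring
  · rw [h0 (x.1, x.2.1) (Or.inr (lt_of_lt_of_le h g2.1))]
    ring
  · rw [h1 (x.2.1, x.2.2) (Or.inr (lt_of_lt_of_le h g3.1))]
    ring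

theorem tsum_form {F₀ F₁ F₂ : ℝ × ℝ → ℝ} {R : ℝ}
    (h0 : ∀ x : ℝ × ℝ, (R < x.1 ∨ R < x.2) → F₀ x = 0)
    (h1 : ∀ x : ℝ × ℝ, (R < x.1 ∨ R < x.2) → F₁ x = 0) (k : ℤ) (P : ℕ)
    (hP : R < (2 : ℝ) ^ k * P) :
    (Summable fun n : XorTriple => |LForm k n F₀ F₁ F₂|) ∧
    ∑' n : XorTriple, |LForm k n F₀ F₁ F₂| = ∑ p ∈ Finset.range P, ∑ q ∈ Finset.range P,
      |LForm k (p, q, p ^^^ q) F₀ F₁ F₂| := by
  have key : ∀ p ∉ Finset.range P ×ˢ Finset.range P,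
      |LForm k ((xe p : XorTriple) : ℕ × ℕ × ℕ) F₀ F₁ F₂| = 0 := by
    intro p hp
    rw [Finset.mem_product, Finset.mem_range, Finset.mem_range, not_and_or, not_lt, not_lt] at hp
    rw [abs_eq_zero]
    refine LForm_zero h0 h1 k _ ?_
    have hpos : (0 : ℝ) < (2 : ℝ) ^ k := by positivity
    rcases hp with hp | hp
    · left
      refine hP.trans_le (mul_le_mul_of_nonneg_left ?_ hpos.le)
      exact_mod_cast hp
    · right
      left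
      refine hP.trans_le (mul_le_mul_of_nonneg_left ?_ hpos.le)
      exact_mod_cast hp
  constructor
  · rw [← xe.summable_iff]
    exact summable_of_ne_finset_zero (s := Finset.range P ×ˢ Finset.range P) key
  · rw [← xe.tsum_eq, tsum_eq_sum (s := Finset.range P ×ˢ Finset.range P) key,
      Finset.sum_product]
    rfl

theorem sum_scales {C₀ : ℝ} (hC : 0 ≤ C₀) (hA : ArrayIneq C₀) {F₀ F₁ F₂ : ℝ × ℝ → ℝ}
    (h0 : Adm F₀) (h1 : Adm F₁) (h2 : Adm F₂) (S : Finset ℤ) :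
    (∀ k ∈ S, Summable fun n : XorTriple => |LForm k n F₀ F₁ F₂|) ∧
    ∑ k ∈ S, ∑' n : XorTriple, |LForm k n F₀ F₁ F₂| ≤ C₀ * (cub F₀ + cub F₁ + cub F₂) := by
  obtain ⟨R0, r0⟩ := h0.vanish
  obtain ⟨R1, r1⟩ := h1.vanish
  set R := max R0 R1 with hR
  have r0' : ∀ x : ℝ × ℝ, (R < x.1 ∨ R < x.2) → F₀ x = 0 := fun x hx =>
    r0 x (hx.imp (fun h => (le_max_left _ _).trans_lt h) (fun h => (le_max_left _ _).trans_lt h))
  have r1' : ∀ x : ℝ × ℝ, (R < x.1 ∨ R < x.2) → F₁ x = 0 := fun x hx =>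
    r1 x (hx.imp (fun h => (le_max_right _ _).trans_lt h)
      (fun h => (le_max_right _ _).trans_lt h))
  obtain ⟨m, hm⟩ := S.bddBelow
  obtain ⟨m', hm'⟩ := S.bddAbove
  set b : ℤ := m - 1 with hb
  have hδ : (0 : ℝ) < (2 : ℝ) ^ b := by positivity
  obtain ⟨n, hn⟩ := pow_unbounded_of_one_lt (R / (2 : ℝ) ^ b) (by norm_num : (1 : ℝ) < 2)
  set K : ℕ := max n (m' - b).toNat with hK
  have hRK : R < (2 : ℝ) ^ b * 2 ^ K := by
    rw [div_lt_iff₀ hδ] at hn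
    refine hn.trans_le ?_
    rw [mul_comm]
    refine mul_le_mul_of_nonneg_left ?_ hδ.le
    exact pow_le_pow_right₀ (by norm_num) (le_max_left _ _)
  set T : ℕ → ℝ := fun l => ∑ p ∈ Finset.range (2 ^ (K - (l + 1))),
      ∑ q ∈ Finset.range (2 ^ (K - (l + 1))),
        |LForm (b + (l + 1 : ℕ)) (p, q, p ^^^ q) F₀ F₁ F₂| with hT
  have hTn : ∀ l, 0 ≤ T l := fun l => Finset.sum_nonneg fun p _ => Finset.sum_nonneg fun q _ =>
    abs_nonneg _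
  have hk : ∀ k ∈ S, ∃ l : ℕ, l < K ∧ k = b + (l + 1 : ℕ) ∧ (k - b - 1).toNat = l := by
    intro k hkS
    have g1 : m ≤ k := hm hkS
    have g2 : k ≤ m' := hm' hkS
    refine ⟨(k - b - 1).toNat, ?_, ?_, rfl⟩
    · have : (k - b - 1).toNat < (m' - b).toNat := by omega
      exact lt_of_lt_of_le this (le_max_right _ _)
    · push_cast
      omega
  have hP : ∀ l, l < K → R < (2 : ℝ) ^ (b + (l + 1 : ℕ)) * ((2 ^ (K - (l + 1)) : ℕ) : ℝ) := by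
    intro l hl
    refine hRK.trans_le (le_of_eq ?_)
    rw [zpow_add₀ (by norm_num : (2 : ℝ) ≠ 0), zpow_natCast, mul_assoc]
    congr 1
    push_cast
    rw [← pow_add]
    congr 1
    omega
  constructor
  · intro k hkS
    obtain ⟨l, hl, e, -⟩ := hk k hkS
    rw [e]
    exact (tsum_form r0' r1' _ _ (hP l hl)).1
  · have e1 : ∑ k ∈ S, ∑' n : XorTriple, |LForm k n F₀ F₁ F₂| =
        ∑ k ∈ S, T ((k - b - 1).toNat) := by
      refine Finset.sum_congr rfl fun k hkS => ?_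
      obtain ⟨l, hl, e, e'⟩ := hk k hkS
      rw [e', e]
      exact (tsum_form r0' r1' _ _ (hP l hl)).2
    have e2 : ∑ k ∈ S, T ((k - b - 1).toNat) = ∑ l ∈ S.image fun k => (k - b - 1).toNat, T l := by
      rw [Finset.sum_image]
      intro x hx y hy hxy
      obtain ⟨l, -, e, e'⟩ := hk x hx
      obtain ⟨l', -, f, f'⟩ := hk y hy
      have : l = l' := by
        rw [← e', ← f']
        exact hxy
      rw [e, f, this]
    rw [e1, e2]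
    refine (Finset.sum_le_sum_of_subset_of_nonneg (t := Finset.range K) ?_ fun l _ _ => hTn l).trans
      (bound_sum hC hA h0 h1 h2 b K)
    intro l hl
    rw [Finset.mem_image] at hl
    obtain ⟨k, hkS, rfl⟩ := hl
    obtain ⟨l, hl, -, e'⟩ := hk k hkS
    rw [e', Finset.mem_range]
    exact hl

/-! ### scaling -/

theorem Adm.smul {F : ℝ × ℝ → ℝ} (hF : Adm F) (t : ℝ) : Adm fun x => t * F x := by
  refine ⟨hF.meas.const_mul t, ?_, ?_⟩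
  · obtain ⟨M, hM⟩ := hF.bdd
    refine ⟨|t| * M, fun x => ?_⟩
    rw [abs_mul]
    exact mul_le_mul_of_nonneg_left (hM x) (abs_nonneg t)
  · exact hF.supp.mul_left

theorem cub_smul (F : ℝ × ℝ → ℝ) {t : ℝ} (ht : 0 ≤ t) :
    cub (fun x => t * F x) = t ^ 3 * cub F := by
  unfold cub
  rw [← integral_const_mul]
  congr 1
  ext x
  rw [abs_mul, abs_of_nonneg ht, mul_pow]

theorem LForm_smul (k : ℤ) (n : ℕ × ℕ × ℕ) (F₀ F₁ F₂ : ℝ × ℝ → ℝ) (t₀ t₁ t₂ : ℝ) :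
    LForm k n (fun x => t₀ * F₀ x) (fun x => t₁ * F₁ x) (fun x => t₂ * F₂ x) =
      t₀ * t₁ * t₂ * LForm k n F₀ F₁ F₂ := by
  unfold LForm
  have h : ∀ G : ℝ × ℝ × ℝ → ℝ,
      t₀ * t₁ * t₂ * ((2 : ℝ) ^ k)⁻¹ *
        ∫ x in dyad k n.1 ×ˢ dyad k n.2.1 ×ˢ dyad k n.2.2, G x =
      ((2 : ℝ) ^ k)⁻¹ *
        ∫ x in dyad k n.1 ×ˢ dyad k n.2.1 ×ˢ dyad k n.2.2, t₀ * t₁ * t₂ * G x := by
    intro G
    rw [integral_const_mul]
    ring
  rw [← mul_assoc, h]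
  refine congrArg _ (congrArg _ (funext fun x => ?_))
  ring

theorem scaling {T C x₀ x₁ x₂ : ℝ} (hx0 : 0 ≤ x₀) (hx1 : 0 ≤ x₁) (hx2 : 0 ≤ x₂) (hC : 0 ≤ C)
    (h : ∀ t₀ t₁ t₂ : ℝ, 0 < t₀ → 0 < t₁ → 0 < t₂ →
      t₀ * t₁ * t₂ * T ≤ C * (t₀ ^ 3 * x₀ ^ 3 + t₁ ^ 3 * x₁ ^ 3 + t₂ ^ 3 * x₂ ^ 3)) :
    T ≤ 3 * C * (x₀ * x₁ * x₂) := by
  have key : ∀ η : ℝ, 0 < η → T ≤ 3 * C * ((x₀ + η) * (x₁ + η) * (x₂ + η)) := by
    intro η hη
    have p0 : 0 < x₀ + η := by linarith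
    have p1 : 0 < x₁ + η := by linarith
    have p2 : 0 < x₂ + η := by linarith
    have h1 := h (x₀ + η)⁻¹ (x₁ + η)⁻¹ (x₂ + η)⁻¹ (inv_pos.2 p0) (inv_pos.2 p1) (inv_pos.2 p2)
    have q : ∀ x : ℝ, 0 ≤ x → (x + η)⁻¹ ^ 3 * x ^ 3 ≤ 1 := by
      intro x hx
      rw [← mul_pow]
      refine pow_le_one₀ (by positivity) ?_
      rw [inv_mul_le_iff₀ (by linarith)]
      linarith
    have h2 : (x₀ + η)⁻¹ * (x₁ + η)⁻¹ * (x₂ + η)⁻¹ * T ≤ C * 3 := by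
      refine h1.trans (mul_le_mul_of_nonneg_left ?_ hC)
      linarith [q x₀ hx0, q x₁ hx1, q x₂ hx2]
    rw [← mul_inv, ← mul_inv, inv_mul_le_iff₀ (by positivity)] at h2
    linarith
  have h3 : Filter.Tendsto (fun η : ℝ => 3 * C * ((x₀ + η) * (x₁ + η) * (x₂ + η)))
      (nhdsWithin 0 (Set.Ioi 0)) (nhds (3 * C * ((x₀ + 0) * (x₁ + 0) * (x₂ + 0)))) := by
    refine Filter.Tendsto.mono_left (Continuous.tendsto ?_ 0) nhdsWithin_le_nhds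
    fun_prop
  have h4 := ge_of_tendsto h3 (Filter.eventually_of_mem self_mem_nhdsWithin fun η hη => key η hη)
  simpa using h4

theorem norm3_nonneg (F : ℝ × ℝ → ℝ) : 0 ≤ norm3 F := Real.rpow_nonneg (cub_nonneg F) _

theorem norm3_cube (F : ℝ × ℝ → ℝ) : norm3 F ^ 3 = cub F := by
  have h : norm3 F = cub F ^ (1 / 3 : ℝ) := rfl
  rw [h, ← Real.rpow_natCast, ← Real.rpow_mul (cub_nonneg F)]
  norm_num

/-- **The form is bounded**, with absolute values inside for every triple of intervals. -/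
theorem analytic {C₀ : ℝ} (hC : 0 ≤ C₀) (hA : ArrayIneq C₀) {F₀ F₁ F₂ : ℝ × ℝ → ℝ}
    (h0 : Adm F₀) (h1 : Adm F₁) (h2 : Adm F₂) (S : Finset ℤ) :
    (∀ k ∈ S, Summable fun n : XorTriple => |LForm k n F₀ F₁ F₂|) ∧
    ∑ k ∈ S, ∑' n : XorTriple, |LForm k n F₀ F₁ F₂| ≤
      3 * C₀ * (norm3 F₀ * norm3 F₁ * norm3 F₂) := by
  refine ⟨(sum_scales hC hA h0 h1 h2 S).1, ?_⟩
  refine scaling (norm3_nonneg _) (norm3_nonneg _) (norm3_nonneg _) hC ?_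
  intro t₀ t₁ t₂ ht0 ht1 ht2
  have h := (sum_scales hC hA (h0.smul t₀) (h1.smul t₁) (h2.smul t₂) S).2
  rw [cub_smul _ ht0.le, cub_smul _ ht1.le, cub_smul _ ht2.le] at h
  rw [norm3_cube, norm3_cube, norm3_cube]
  refine le_trans (le_of_eq ?_) h
  rw [Finset.mul_sum]
  refine Finset.sum_congr rfl fun k _ => ?_
  rw [← tsum_mul_left]
  congr 1
  ext n
  rw [LForm_smul, abs_mul, abs_of_nonneg (show (0 : ℝ) ≤ t₀ * t₁ * t₂ by positivity)]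

theorem Lam_le {C : ℝ} {F₀ F₁ F₂ : ℝ × ℝ → ℝ} (S : Finset ℤ)
    (h : (∀ k ∈ S, Summable fun n : XorTriple => |LForm k n F₀ F₁ F₂|) ∧
      ∑ k ∈ S, ∑' n : XorTriple, |LForm k n F₀ F₁ F₂| ≤ C) (ε : ℤ → ℝ)
    (hε : ∀ k ∈ S, |ε k| ≤ 1) : |Lam S ε F₀ F₁ F₂| ≤ C := by
  unfold Lam
  refine (Finset.abs_sum_le_sum_abs _ _).trans (le_trans (Finset.sum_le_sum fun k hk => ?_) h.2)
  rw [abs_mul]
  have h1 : |∑' n : XorTriple, LForm k n F₀ F₁ F₂| ≤ ∑' n : XorTriple, |LForm k n F₀ F₁ F₂| := by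
    have h2 := norm_tsum_le_tsum_norm (f := fun n : XorTriple => LForm k n F₀ F₁ F₂)
      (by simpa [Real.norm_eq_abs] using h.1 k hk)
    simpa [Real.norm_eq_abs] using h2
  calc |ε k| * |∑' n : XorTriple, LForm k n F₀ F₁ F₂|
      ≤ 1 * ∑' n : XorTriple, |LForm k n F₀ F₁ F₂| :=
        mul_le_mul (hε k hk) h1 (abs_nonneg _) zero_le_one
    _ = _ := one_mul _

end Vale.Agent.P075.Dy
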