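import Mathlib

/-!
# P075: the array form of the dyadic triangular Hilbert form
-/

open Finset

namespace Vale.Agent.P075.Dy

/-- Real, Borel measurable, bounded functions of compact support. -/
structure Adm (F : ℝ × ℝ → ℝ) : Prop where
  meas : Measurable F
  bdd : ∃ M : ℝ, ∀ x, |F x| ≤ M
  supp : HasCompactSupport F

/-- sign of position `a < 2^(l+1)` in a block of size `2^(l+1)`: `1` on the first half. -/
def sg (l a : ℕ) : ℝ := if a < 2 ^ l then 1 else -1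

/-- `tr (D A D B D C)` of the cell `(p,q,r)` of size `2^(l+1)` of the arrays `A, B, C`. -/
noncomputable def Jarr (l p q r : ℕ) (A B C : ℕ → ℕ → ℝ) : ℝ :=
  ∑ a ∈ range (2 ^ (l + 1)), ∑ b ∈ range (2 ^ (l + 1)), ∑ c ∈ range (2 ^ (l + 1)),
    A (2 ^ (l + 1) * p + a) (2 ^ (l + 1) * q + b) *
      B (2 ^ (l + 1) * q + b) (2 ^ (l + 1) * r + c) *
      C (2 ^ (l + 1) * r + c) (2 ^ (l + 1) * p + a) * (sg l a * sg l b * sg l c)

/-- The inequality for arrays. -/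
def S_ARRAY : Prop := ∃ C₀ : ℝ, 0 < C₀ ∧ ∀ (K : ℕ) (A B C : ℕ → ℕ → ℝ),
  ∑ l ∈ range K, ((2 : ℝ) ^ (l + 1))⁻¹ * ∑ p ∈ range (2 ^ (K - (l + 1))),
      ∑ q ∈ range (2 ^ (K - (l + 1))), |Jarr l p q (p ^^^ q) A B C| ≤
    C₀ * ∑ a ∈ range (2 ^ K), ∑ b ∈ range (2 ^ K), (|A a b| ^ 3 + |B a b| ^ 3 + |C a b| ^ 3)

end Vale.Agent.P075.Dy
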