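import Vale.Agent.P075.Sample3

/-!
# P075: from the array inequality to the form
-/

open MeasureTheory Set Finset

namespace Vale.Agent.P075.Dy

theorem ar0_meas {F : ℝ × ℝ → ℝ} (hF : Measurable F) (δ : ℝ) (a b : ℕ) :
    Measurable fun u => ar0 F δ u a b := by
  unfold ar0
  exact hF.comp ((measurable_fst.const_add _).prodMk
    ((measurable_fst.comp measurable_snd).const_add _))

theorem ar1_meas {F : ℝ × ℝ → ℝ} (hF : Measurable F) (δ : ℝ) (a b : ℕ) :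
    Measurable fun u => ar1 F δ u a b := by
  unfold ar1
  exact hF.comp (((measurable_fst.comp measurable_snd).const_add _).prodMk
    ((measurable_snd.comp measurable_snd).const_add _))

theorem ar2_meas {F : ℝ × ℝ → ℝ} (hF : Measurable F) (δ : ℝ) (a b : ℕ) :
    Measurable fun u => ar2 F δ u a b := by
  unfold ar2
  exact hF.comp (((measurable_snd.comp measurable_snd).const_add _).prodMk
    (measurable_fst.const_add _))

theorem Jarr_int {F₀ F₁ F₂ : ℝ × ℝ → ℝ} (h0 : Adm F₀) (h1 : Adm F₁) (h2 : Adm F₂) (δ : ℝ)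
    (l p q r : ℕ) :
    IntegrableOn (fun u => Jarr l p q r (ar0 F₀ δ u) (ar1 F₁ δ u) (ar2 F₂ δ u)) (UU δ) := by
  unfold Jarr
  refine integrable_finsetSum _ fun a _ => integrable_finsetSum _ fun b _ =>
    integrable_finsetSum _ fun c _ => ?_
  refine Integrable.mul_const ?_ _
  obtain ⟨M0, m0⟩ := h0.bdd
  obtain ⟨M1, m1⟩ := h1.bdd
  obtain ⟨M2, m2⟩ := h2.bdd
  have p0 : 0 ≤ M0 := (abs_nonneg _).trans (m0 (0, 0))
  have p1 : 0 ≤ M1 := (abs_nonneg _).trans (m1 (0, 0))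
  refine integrableOn_of_bdd (M := M0 * M1 * M2)
    (((ar0_meas h0.meas δ _ _).mul (ar1_meas h1.meas δ _ _)).mul (ar2_meas h2.meas δ _ _))
    (fun u => ?_) (UU_finite δ)
  simp only [Pi.mul_apply]
  rw [abs_mul, abs_mul]
  have g0 : |ar0 F₀ δ u (2 ^ (l + 1) * p + a) (2 ^ (l + 1) * q + b)| ≤ M0 := m0 _
  have g1 : |ar1 F₁ δ u (2 ^ (l + 1) * q + b) (2 ^ (l + 1) * r + c)| ≤ M1 := m1 _
  have g2 : |ar2 F₂ δ u (2 ^ (l + 1) * r + c) (2 ^ (l + 1) * p + a)| ≤ M2 := m2 _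
  exact mul_le_mul (mul_le_mul g0 g1 (abs_nonneg _) p0) g2 (abs_nonneg _) (mul_nonneg p0 p1)

theorem LForm_le {F₀ F₁ F₂ : ℝ × ℝ → ℝ} (h0 : Adm F₀) (h1 : Adm F₁) (h2 : Adm F₂)
    (b : ℤ) (l : ℕ) (n : ℕ × ℕ × ℕ) :
    |LForm (b + (l + 1 : ℕ)) n F₀ F₁ F₂| ≤ ((2 : ℝ) ^ b)⁻¹ * (((2 : ℝ) ^ (l + 1))⁻¹ *
      ∫ u in UU ((2 : ℝ) ^ b), |Jarr l n.1 n.2.1 n.2.2 (ar0 F₀ ((2 : ℝ) ^ b) u)
        (ar1 F₁ ((2 : ℝ) ^ b) u) (ar2 F₂ ((2 : ℝ) ^ b) u)|) := by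
  rw [LForm_eq h0 h1 h2, abs_mul, ← mul_assoc]
  have e : |((2 : ℝ) ^ (b + (l + 1 : ℕ)))⁻¹| = ((2 : ℝ) ^ b)⁻¹ * ((2 : ℝ) ^ (l + 1))⁻¹ := by
    rw [abs_of_nonneg (by positivity), zpow_add₀ (by norm_num : (2 : ℝ) ≠ 0), zpow_natCast,
      mul_inv]
  rw [e]
  refine mul_le_mul_of_nonneg_left ?_ (by positivity)
  exact abs_integral_le_integral_abs

theorem cube_sum_int {F₀ F₁ F₂ : ℝ × ℝ → ℝ} (h0 : Adm F₀) (h1 : Adm F₁) (h2 : Adm F₂)
    {δ : ℝ} (hδ : 0 < δ) (N : ℕ) :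
    IntegrableOn (fun u => ∑ a ∈ Finset.range N, ∑ b ∈ Finset.range N,
      (|ar0 F₀ δ u a b| ^ 3 + |ar1 F₁ δ u a b| ^ 3 + |ar2 F₂ δ u a b| ^ 3)) (UU δ) ∧
    ∫ u in UU δ, ∑ a ∈ Finset.range N, ∑ b ∈ Finset.range N,
      (|ar0 F₀ δ u a b| ^ 3 + |ar1 F₁ δ u a b| ^ 3 + |ar2 F₂ δ u a b| ^ 3) ≤
      δ * (cub F₀ + cub F₁ + cub F₂) := by
  obtain ⟨M0, m0⟩ := h0.cube_bdd
  obtain ⟨M1, m1⟩ := h1.cube_bdd
  obtain ⟨M2, m2⟩ := h2.cube_bdd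
  have i0 : ∀ a b, IntegrableOn (fun u => |ar0 F₀ δ u a b| ^ 3) (UU δ) := fun a b =>
    integrableOn_of_bdd (((continuous_abs.measurable.comp (ar0_meas h0.meas δ a b))).pow_const 3)
      (fun u => m0 _) (UU_finite δ)
  have i1 : ∀ a b, IntegrableOn (fun u => |ar1 F₁ δ u a b| ^ 3) (UU δ) := fun a b =>
    integrableOn_of_bdd (((continuous_abs.measurable.comp (ar1_meas h1.meas δ a b))).pow_const 3)
      (fun u => m1 _) (UU_finite δ)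
  have i2 : ∀ a b, IntegrableOn (fun u => |ar2 F₂ δ u a b| ^ 3) (UU δ) := fun a b =>
    integrableOn_of_bdd (((continuous_abs.measurable.comp (ar2_meas h2.meas δ a b))).pow_const 3)
      (fun u => m2 _) (UU_finite δ)
  have i01 : ∀ a b, IntegrableOn (fun u => |ar0 F₀ δ u a b| ^ 3 + |ar1 F₁ δ u a b| ^ 3)
      (UU δ) := fun a b => (i0 a b).add (i1 a b)
  have i3 : ∀ a b, IntegrableOn (fun u => |ar0 F₀ δ u a b| ^ 3 + |ar1 F₁ δ u a b| ^ 3 +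
      |ar2 F₂ δ u a b| ^ 3) (UU δ) := fun a b => (i01 a b).add (i2 a b)
  refine ⟨integrable_finsetSum _ fun a _ => integrable_finsetSum _ fun b _ => i3 a b, ?_⟩
  rw [integral_finsetSum _ fun a _ => integrable_finsetSum _ fun b _ => i3 a b]
  have e0 : ∀ a b : ℕ, ∫ u in UU δ, |ar0 F₀ δ u a b| ^ 3 =
      δ * ∫ w in U2 δ, |F₀ (δ * a + w.1, δ * b + w.2)| ^ 3 := fun a b =>
    marg0 hδ (g := fun w => |F₀ (δ * a + w.1, δ * b + w.2)| ^ 3)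
      (h0.cube_meas.comp ((measurable_fst.const_add _).prodMk (measurable_snd.const_add _)))
      (fun x => m0 _)
  have e1 : ∀ a b : ℕ, ∫ u in UU δ, |ar1 F₁ δ u a b| ^ 3 =
      δ * ∫ w in U2 δ, |F₁ (δ * a + w.1, δ * b + w.2)| ^ 3 := fun a b =>
    marg1 hδ (g := fun w => |F₁ (δ * a + w.1, δ * b + w.2)| ^ 3)
      (h1.cube_meas.comp ((measurable_fst.const_add _).prodMk (measurable_snd.const_add _)))
      (fun x => m1 _)
  have e2 : ∀ a b : ℕ, ∫ u in UU δ, |ar2 F₂ δ u a b| ^ 3 =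
      δ * ∫ w in U2 δ, |F₂ (δ * a + w.1, δ * b + w.2)| ^ 3 := fun a b =>
    marg2 hδ (g := fun w => |F₂ (δ * a + w.1, δ * b + w.2)| ^ 3)
      (h2.cube_meas.comp ((measurable_fst.const_add _).prodMk (measurable_snd.const_add _)))
      (fun x => m2 _)
  have e3 : ∀ a : ℕ, ∫ u in UU δ, ∑ b ∈ Finset.range N, (|ar0 F₀ δ u a b| ^ 3 +
      |ar1 F₁ δ u a b| ^ 3 + |ar2 F₂ δ u a b| ^ 3) = ∑ b ∈ Finset.range N,
      (δ * (∫ w in U2 δ, |F₀ (δ * a + w.1, δ * b + w.2)| ^ 3) +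
        δ * (∫ w in U2 δ, |F₁ (δ * a + w.1, δ * b + w.2)| ^ 3) +
        δ * ∫ w in U2 δ, |F₂ (δ * a + w.1, δ * b + w.2)| ^ 3) := by
    intro a
    rw [integral_finsetSum _ fun b _ => i3 a b]
    refine Finset.sum_congr rfl fun b _ => ?_
    rw [integral_add (i01 a b) (i2 a b), integral_add (i0 a b) (i1 a b), e0, e1, e2]
  rw [Finset.sum_congr rfl fun a _ => e3 a]
  simp only [Finset.sum_add_distrib, ← Finset.mul_sum]
  have s0 := sum_le_cub h0 hδ N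
  have s1 := sum_le_cub h1 hδ N
  have s2 := sum_le_cub h2 hδ N
  nlinarith [mul_le_mul_of_nonneg_left s0 hδ.le, mul_le_mul_of_nonneg_left s1 hδ.le,
    mul_le_mul_of_nonneg_left s2 hδ.le]

/-- the array inequality with a given constant -/
def ArrayIneq (C₀ : ℝ) : Prop := ∀ (K : ℕ) (A B C : ℕ → ℕ → ℝ),
  ∑ l ∈ Finset.range K, ((2 : ℝ) ^ (l + 1))⁻¹ * ∑ p ∈ Finset.range (2 ^ (K - (l + 1))),
      ∑ q ∈ Finset.range (2 ^ (K - (l + 1))), |Jarr l p q (p ^^^ q) A B C| ≤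
    C₀ * ∑ a ∈ Finset.range (2 ^ K), ∑ b ∈ Finset.range (2 ^ K),
      (|A a b| ^ 3 + |B a b| ^ 3 + |C a b| ^ 3)

theorem bound_sum {C₀ : ℝ} (hC : 0 ≤ C₀) (hA : ArrayIneq C₀) {F₀ F₁ F₂ : ℝ × ℝ → ℝ}
    (h0 : Adm F₀) (h1 : Adm F₁) (h2 : Adm F₂) (b : ℤ) (K : ℕ) :
    ∑ l ∈ Finset.range K, ∑ p ∈ Finset.range (2 ^ (K - (l + 1))),
      ∑ q ∈ Finset.range (2 ^ (K - (l + 1))),
        |LForm (b + (l + 1 : ℕ)) (p, q, p ^^^ q) F₀ F₁ F₂| ≤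
      C₀ * (cub F₀ + cub F₁ + cub F₂) := by
  set δ : ℝ := (2 : ℝ) ^ b with hδd
  have hδ : 0 < δ := by positivity
  set J : ℕ → ℕ → ℕ → ℝ × ℝ × ℝ → ℝ := fun l p q u =>
    |Jarr l p q (p ^^^ q) (ar0 F₀ δ u) (ar1 F₁ δ u) (ar2 F₂ δ u)| with hJ
  have hJi : ∀ l p q, IntegrableOn (J l p q) (UU δ) := fun l p q =>
    (Jarr_int h0 h1 h2 δ l p q (p ^^^ q)).abs
  have step1 : ∑ l ∈ Finset.range K, ∑ p ∈ Finset.range (2 ^ (K - (l + 1))),
      ∑ q ∈ Finset.range (2 ^ (K - (l + 1))),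
        |LForm (b + (l + 1 : ℕ)) (p, q, p ^^^ q) F₀ F₁ F₂| ≤
      ∑ l ∈ Finset.range K, ∑ p ∈ Finset.range (2 ^ (K - (l + 1))),
      ∑ q ∈ Finset.range (2 ^ (K - (l + 1))),
        δ⁻¹ * (((2 : ℝ) ^ (l + 1))⁻¹ * ∫ u in UU δ, J l p q u) :=
    Finset.sum_le_sum fun l _ => Finset.sum_le_sum fun p _ => Finset.sum_le_sum fun q _ =>
      LForm_le h0 h1 h2 b l (p, q, p ^^^ q)
  have step2 : ∑ l ∈ Finset.range K, ∑ p ∈ Finset.range (2 ^ (K - (l + 1))),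
      ∑ q ∈ Finset.range (2 ^ (K - (l + 1))),
        δ⁻¹ * (((2 : ℝ) ^ (l + 1))⁻¹ * ∫ u in UU δ, J l p q u) =
      δ⁻¹ * ∫ u in UU δ, ∑ l ∈ Finset.range K, ((2 : ℝ) ^ (l + 1))⁻¹ *
        ∑ p ∈ Finset.range (2 ^ (K - (l + 1))),
          ∑ q ∈ Finset.range (2 ^ (K - (l + 1))), J l p q u := by
    have hp : ∀ l p, IntegrableOn (fun u => ∑ q ∈ Finset.range (2 ^ (K - (l + 1))), J l p q u)
        (UU δ) := fun l p => integrable_finsetSum _ fun q _ => hJi l p q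
    have hl : ∀ l, IntegrableOn (fun u => ∑ p ∈ Finset.range (2 ^ (K - (l + 1))),
        ∑ q ∈ Finset.range (2 ^ (K - (l + 1))), J l p q u) (UU δ) :=
      fun l => integrable_finsetSum _ fun p _ => hp l p
    rw [integral_finsetSum _ fun l _ => (hl l).const_mul _, Finset.mul_sum]
    refine Finset.sum_congr rfl fun l _ => ?_
    rw [integral_const_mul, integral_finsetSum _ fun p _ => hp l p, Finset.mul_sum,
      Finset.mul_sum]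
    refine Finset.sum_congr rfl fun p _ => ?_
    rw [integral_finsetSum _ fun q _ => hJi l p q, Finset.mul_sum, Finset.mul_sum]
  rw [step2] at step1
  refine step1.trans ?_
  obtain ⟨hi, hc⟩ := cube_sum_int h0 h1 h2 hδ (2 ^ K)
  have step3 : ∫ u in UU δ, ∑ l ∈ Finset.range K, ((2 : ℝ) ^ (l + 1))⁻¹ *
        ∑ p ∈ Finset.range (2 ^ (K - (l + 1))),
          ∑ q ∈ Finset.range (2 ^ (K - (l + 1))), J l p q u ≤
      ∫ u in UU δ, C₀ * ∑ a ∈ Finset.range (2 ^ K), ∑ b ∈ Finset.range (2 ^ K),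
        (|ar0 F₀ δ u a b| ^ 3 + |ar1 F₁ δ u a b| ^ 3 + |ar2 F₂ δ u a b| ^ 3) := by
    refine integral_mono ?_ (hi.const_mul _) fun u => hA K _ _ _
    exact integrable_finsetSum _ fun l _ => Integrable.const_mul
      (integrable_finsetSum _ fun p _ => integrable_finsetSum _ fun q _ => hJi l p q) _
  rw [integral_const_mul] at step3
  calc δ⁻¹ * _ ≤ δ⁻¹ * (C₀ * (δ * (cub F₀ + cub F₁ + cub F₂))) := by
        refine mul_le_mul_of_nonneg_left (step3.trans ?_) (by positivity)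
        exact mul_le_mul_of_nonneg_left hc hC
    _ = C₀ * (cub F₀ + cub F₁ + cub F₂) := by field_simp

end Vale.Agent.P075.Dy
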