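import Vale.Agent.P075b.All
import Vale.Agent.P075.Analytic

/-!
# P075: the array inequality in the form used by the analytic part
-/

namespace Vale.Agent.P075.Dy

theorem JN_eq_Jarr (A B C : ℕ → ℕ → ℝ) (l p q r : ℕ) :
    P075R.JN A B C l p q r = Jarr l p q r A B C := by
  unfold P075R.JN Jarr
  refine Finset.sum_congr rfl fun a _ => Finset.sum_congr rfl fun b _ =>
    Finset.sum_congr rfl fun c _ => ?_
  rw [mul_comm p, mul_comm q, mul_comm r]
  have h : ∀ i, P075R.sg l i = sg l i := fun _ => rfl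
  rw [h, h, h]
  ring

/-- the array inequality with the sum of the cubes on the right -/
theorem sum_form (R : ℕ) (f0 f1 f2 : ℕ → ℕ → ℝ) :
    ∑ j ∈ Finset.range R, ((2 : ℝ) ^ (j + 1))⁻¹ *
      ∑ X ∈ Finset.range (2 ^ (R - (j + 1))), ∑ Y ∈ Finset.range (2 ^ (R - (j + 1))),
        |P075R.JN f0 f1 f2 j X Y (X ^^^ Y)| ≤
      2752 * 8 * (P075R.S3 R f0 + P075R.S3 R f1 + P075R.S3 R f2) := by
  refine P075R.recur_sum (β := Fin 2) (fun i => decide (i = 1)) (fun i j => i + j) ?_ ?_
    (fun k A B C => psi A B C) 2752 8 (by norm_num) ?_ ?_ ?_ R f0 f1 f2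
  · decide
  · intro g
    simp [Fin.sum_univ_two]
  · intro k A B C
    exact psi_nonneg A B C
  · intro A B C
    exact leaf A B C
  · intro k A B C
    have h := local_ineq step_all tri_all A B C
    have hsg : ∀ i : Fin 2, P075R.sB (decide (i = 1)) = P075.sg i := by
      intro i
      fin_cases i <;> simp [P075R.sB, P075.sg]
    simp only [hsg]
    exact h

theorem arrayIneq : ArrayIneq (2752 * 8) := by
  intro K A B C
  have h := sum_form K A B C
  simp only [JN_eq_Jarr] at h
  refine h.trans (le_of_eq ?_)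
  unfold P075R.S3
  rw [← Finset.sum_add_distrib, ← Finset.sum_add_distrib]
  congr 1
  refine Finset.sum_congr rfl fun a _ => ?_
  rw [← Finset.sum_add_distrib, ← Finset.sum_add_distrib]

end Vale.Agent.P075.Dy
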