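import Vale.Agent.P075.Conv

/-!
# P075, Q2: boundedness of the dyadic triangular Hilbert form, also for Lebesgue measurable functions
-/

open MeasureTheory Set

namespace Vale.Agent.P075.Dy

theorem AdmL.exists_borel {F : ℝ × ℝ → ℝ} (hF : AdmL F) :
    ∃ G : ℝ × ℝ → ℝ, Adm G ∧ G =ᵐ[volume] F := by
  obtain ⟨M, hM⟩ := hF.bdd
  have hm := hF.meas
  refine ⟨({x | |hm.mk F x| ≤ M} ∩ tsupport F).indicator (hm.mk F), ⟨?_, ⟨|M|, ?_⟩, ?_⟩, ?_⟩
  · exact hm.measurable_mk.indicator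
      ((measurableSet_le hm.measurable_mk.abs measurable_const).inter
        hF.supp.isCompact.measurableSet)
  · intro x
    by_cases hx : x ∈ {x | |hm.mk F x| ≤ M} ∩ tsupport F
    · rw [indicator_of_mem hx]
      exact (show |hm.mk F x| ≤ M from hx.1).trans (le_abs_self M)
    · rw [indicator_of_notMem hx, abs_zero]
      exact abs_nonneg M
  · refine HasCompactSupport.intro hF.supp.isCompact fun x hx => ?_
    exact indicator_of_notMem (fun h => hx h.2) _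
  · filter_upwards [hm.ae_eq_mk] with x hx
    by_cases h : x ∈ tsupport F
    · have h1 : x ∈ {x | |hm.mk F x| ≤ M} ∩ tsupport F :=
        ⟨show |hm.mk F x| ≤ M by rw [← hx]; exact hM x, h⟩
      rw [indicator_of_mem h1, hx]
    · rw [indicator_of_notMem (fun h' => h h'.2), image_eq_zero_of_notMem_tsupport h]

theorem qmp0 : Measure.QuasiMeasurePreserving (fun x : ℝ × ℝ × ℝ => (x.1, x.2.1))
    (volume : Measure (ℝ × ℝ × ℝ)) (volume : Measure (ℝ × ℝ)) := by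
  have h1 : Measure.QuasiMeasurePreserving
      (MeasurableEquiv.prodAssoc.symm : ℝ × ℝ × ℝ ≃ᵐ (ℝ × ℝ) × ℝ)
      (volume : Measure (ℝ × ℝ × ℝ)) (volume : Measure ((ℝ × ℝ) × ℝ)) :=
    (volume_preserving_prodAssoc.symm _).quasiMeasurePreserving
  have h2 : Measure.QuasiMeasurePreserving (Prod.fst : (ℝ × ℝ) × ℝ → ℝ × ℝ)
      (volume : Measure ((ℝ × ℝ) × ℝ)) (volume : Measure (ℝ × ℝ)) :=
    Measure.quasiMeasurePreserving_fst
  exact h2.comp h1

theorem qmp1 : Measure.QuasiMeasurePreserving (fun x : ℝ × ℝ × ℝ => (x.2.1, x.2.2))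
    (volume : Measure (ℝ × ℝ × ℝ)) (volume : Measure (ℝ × ℝ)) :=
  Measure.quasiMeasurePreserving_snd

theorem qmp2 : Measure.QuasiMeasurePreserving (fun x : ℝ × ℝ × ℝ => (x.2.2, x.1))
    (volume : Measure (ℝ × ℝ × ℝ)) (volume : Measure (ℝ × ℝ)) := by
  have h1 : Measure.QuasiMeasurePreserving (Prod.swap : ℝ × ℝ × ℝ → (ℝ × ℝ) × ℝ)
      (volume : Measure (ℝ × ℝ × ℝ)) (volume : Measure ((ℝ × ℝ) × ℝ)) :=
    Measure.measurePreserving_swap.quasiMeasurePreserving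
  have h2 : Measure.QuasiMeasurePreserving
      (MeasurableEquiv.prodAssoc : (ℝ × ℝ) × ℝ ≃ᵐ ℝ × ℝ × ℝ)
      (volume : Measure ((ℝ × ℝ) × ℝ)) (volume : Measure (ℝ × ℝ × ℝ)) :=
    volume_preserving_prodAssoc.quasiMeasurePreserving
  exact (qmp1.comp h2).comp h1

theorem LForm_congr (k : ℤ) (n : ℕ × ℕ × ℕ) {F₀ F₁ F₂ G₀ G₁ G₂ : ℝ × ℝ → ℝ}
    (h0 : G₀ =ᵐ[volume] F₀) (h1 : G₁ =ᵐ[volume] F₁) (h2 : G₂ =ᵐ[volume] F₂) :
    LForm k n G₀ G₁ G₂ = LForm k n F₀ F₁ F₂ := by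
  unfold LForm
  congr 1
  refine integral_congr_ae (ae_restrict_of_ae ?_)
  filter_upwards [qmp0.ae_eq_comp h0, qmp1.ae_eq_comp h1, qmp2.ae_eq_comp h2] with x e0 e1 e2
  have e0' : G₀ (x.1, x.2.1) = F₀ (x.1, x.2.1) := e0
  have e1' : G₁ (x.2.1, x.2.2) = F₁ (x.2.1, x.2.2) := e1
  have e2' : G₂ (x.2.2, x.1) = F₂ (x.2.2, x.1) := e2
  rw [e0', e1', e2']

theorem norm3_congr {F G : ℝ × ℝ → ℝ} (h : G =ᵐ[volume] F) : norm3 G = norm3 F := by
  unfold norm3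
  congr 1
  refine integral_congr_ae (ae_restrict_of_ae ?_)
  filter_upwards [h] with x hx
  rw [hx]

/-- **The dyadic triangular Hilbert form is bounded**, with absolute values for every triple of
intervals. -/
theorem full {F₀ F₁ F₂ : ℝ × ℝ → ℝ} (h0 : AdmL F₀) (h1 : AdmL F₁) (h2 : AdmL F₂)
    (S : Finset ℤ) :
    (∀ k ∈ S, Summable fun n : XorTriple => |LForm k n F₀ F₁ F₂|) ∧
    ∑ k ∈ S, ∑' n : XorTriple, |LForm k n F₀ F₁ F₂| ≤
      66048 * (norm3 F₀ * norm3 F₁ * norm3 F₂) := by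
  obtain ⟨G₀, a0, b0⟩ := h0.exists_borel
  obtain ⟨G₁, a1, b1⟩ := h1.exists_borel
  obtain ⟨G₂, a2, b2⟩ := h2.exists_borel
  have h := analytic (C₀ := 2752 * 8) (by norm_num) arrayIneq a0 a1 a2 S
  simp only [LForm_congr _ _ b0 b1 b2, norm3_congr b0, norm3_congr b1, norm3_congr b2] at h
  refine ⟨h.1, h.2.trans (le_of_eq ?_)⟩
  norm_num

end Vale.Agent.P075.Dy
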