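import Vale.Agent.P075.Defs

/-! P075, module GAP (helper12). -/

set_option autoImplicit false

namespace Vale.Agent.P075

open Matrix

namespace GAP

variable {n : Type} [Fintype n] [DecidableEq n]

lemma diag (H : Matrix n n ℝ) (hH : H.PosSemidef) :
    ∃ (U : Matrix n n ℝ) (d : n → ℝ), Uᵀ * U = 1 ∧ U * Uᵀ = 1 ∧ (∀ i, 0 ≤ d i) ∧
      H = U * diagonal d * Uᵀ := by
  refine ⟨hH.1.eigenvectorUnitary, hH.1.eigenvalues, ?_, ?_, hH.eigenvalues_nonneg, ?_⟩
  · have h := Unitary.coe_star_mul_self hH.1.eigenvectorUnitary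
    rw [star_eq_conjTranspose, conjTranspose_eq_transpose_of_trivial] at h
    exact h
  · have h := Unitary.coe_mul_star_self hH.1.eigenvectorUnitary
    rw [Unitary.coe_star, star_eq_conjTranspose, conjTranspose_eq_transpose_of_trivial] at h
    exact h
  · have h := hH.1.spectral_theorem
    rw [Unitary.conjStarAlgAut_apply, star_eq_conjTranspose,
      conjTranspose_eq_transpose_of_trivial] at h
    exact h

/-- solution of the Lyapunov equation -/
lemma lsol (H Y : Matrix n n ℝ) (hH : H.PosSemidef) (hY : Yᵀ = Y)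
    (hker : ∀ v : n → ℝ, H *ᵥ v = 0 → Y *ᵥ v = 0) :
    ∃ L : Matrix n n ℝ, Lᵀ = L ∧ H * L + L * H = Y ∧ ∀ v : n → ℝ, H *ᵥ v = 0 → L *ᵥ v = 0 := by
  obtain ⟨U, d, hU1, hU2, hd, hHU⟩ := diag H hH
  set Y' : Matrix n n ℝ := Uᵀ * Y * U with hY'
  have hY's : Y'ᵀ = Y' := by
    rw [hY', transpose_mul, transpose_mul, transpose_transpose, hY, Matrix.mul_assoc]
  have hHU2 : H * U = U * diagonal d := by
    rw [hHU, Matrix.mul_assoc, hU1, Matrix.mul_one]
  have h0 : ∀ i j, d j = 0 → Y' i j = 0 := by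
    intro i j hj
    have h1 : H *ᵥ (fun a => U a j) = 0 := by
      funext a
      have : (H * U) a j = (U * diagonal d) a j := by rw [hHU2]
      rw [Matrix.mul_diagonal, hj, mul_zero] at this
      exact this
    have h2 := hker _ h1
    have h3 : ∀ a, (Y * U) a j = 0 := fun a => congrFun h2 a
    rw [hY', Matrix.mul_assoc, Matrix.mul_apply]
    simp [h3]
  have h0' : ∀ i j, d i = 0 → Y' i j = 0 := by
    intro i j hi
    rw [← hY's, transpose_apply]
    exact h0 j i hi
  set L' : Matrix n n ℝ := Matrix.of (fun i j => Y' i j / (d i + d j)) with hL'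
  have hL's : L'ᵀ = L' := by
    ext i j
    rw [transpose_apply, hL', Matrix.of_apply, Matrix.of_apply, add_comm (d j)]
    congr 1
    exact congrFun (congrFun hY's i) j
  refine ⟨U * L' * Uᵀ, ?_, ?_, ?_⟩
  · rw [transpose_mul, transpose_mul, transpose_transpose, hL's, Matrix.mul_assoc]
  · have e1 : diagonal d * L' + L' * diagonal d = Y' := by
      ext i j
      rw [Matrix.add_apply, Matrix.diagonal_mul, Matrix.mul_diagonal, hL', Matrix.of_apply]
      rcases eq_or_ne (d i + d j) 0 with h | h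
      · have hi : d i = 0 := by linarith [hd i, hd j]
        rw [h0' i j hi]; simp
      · field_simp
    have e2 : H * (U * L' * Uᵀ) + (U * L' * Uᵀ) * H = U * (diagonal d * L' + L' * diagonal d) * Uᵀ := by
      have a1 : H * (U * L' * Uᵀ) = U * (diagonal d * L') * Uᵀ := by
        rw [← Matrix.mul_assoc, ← Matrix.mul_assoc, hHU2]
        simp only [Matrix.mul_assoc]
      have a2 : (U * L' * Uᵀ) * H = U * (L' * diagonal d) * Uᵀ := by
        have : Uᵀ * H = diagonal d * Uᵀ := by
          rw [hHU, ← Matrix.mul_assoc, ← Matrix.mul_assoc, hU1, Matrix.one_mul]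
        rw [Matrix.mul_assoc, this]
        simp only [Matrix.mul_assoc]
      rw [a1, a2, ← Matrix.add_mul, ← Matrix.mul_add]
    rw [e2, e1, hY']
    calc U * (Uᵀ * Y * U) * Uᵀ = (U * Uᵀ) * Y * (U * Uᵀ) := by simp only [Matrix.mul_assoc]
      _ = Y := by rw [hU2, Matrix.one_mul, Matrix.mul_one]
  · intro v hv
    set w : n → ℝ := Uᵀ *ᵥ v with hw
    have h1 : ∀ j, d j * w j = 0 := by
      intro j
      have h2 : diagonal d *ᵥ w = 0 := by
        have : Uᵀ *ᵥ (H *ᵥ v) = diagonal d *ᵥ w := by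
          rw [hw, Matrix.mulVec_mulVec, Matrix.mulVec_mulVec, hHU, ← Matrix.mul_assoc,
            ← Matrix.mul_assoc, hU1, Matrix.one_mul]
        rw [← this, hv, Matrix.mulVec_zero]
      have := congrFun h2 j
      rwa [Matrix.mulVec_diagonal] at this
    have h2 : L' *ᵥ w = 0 := by
      funext i
      rw [Matrix.mulVec, dotProduct, Pi.zero_apply]
      refine Finset.sum_eq_zero fun j _ => ?_
      rcases mul_eq_zero.1 (h1 j) with h | h
      · rw [hL', Matrix.of_apply, h0 i j h]; simp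
      · rw [h, mul_zero]
    rw [← Matrix.mulVec_mulVec, ← Matrix.mulVec_mulVec, ← hw, h2, Matrix.mulVec_zero]

lemma psd_sq (H : Matrix n n ℝ) (hH : H.PosSemidef) : (H * H).PosSemidef := by
  have h := posSemidef_conjTranspose_mul_self H
  rwa [hH.1.eq] at h

lemma tr_psd (H D : Matrix n n ℝ) (hH : H.PosSemidef) (hD : Dᵀ = D) :
    0 ≤ trace (H * D * D) := by
  have h := (hH.conjTranspose_mul_mul_same D).trace_nonneg
  rw [conjTranspose_eq_transpose_of_trivial, hD] at h
  rwa [Matrix.trace_mul_comm, ← Matrix.mul_assoc, Matrix.trace_mul_comm, ← Matrix.mul_assoc] at h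

lemma ker_of (H H0 H1 : Matrix n n ℝ) (hH0 : H0.PosSemidef) (hH1 : H1.PosSemidef)
    (h : H0 * H0 + H1 * H1 = H * H) (v : n → ℝ) (hv : H *ᵥ v = 0) :
    H0 *ᵥ v = 0 ∧ H1 *ᵥ v = 0 := by
  have e : (H0 *ᵥ v) ⬝ᵥ (H0 *ᵥ v) + (H1 *ᵥ v) ⬝ᵥ (H1 *ᵥ v) = 0 := by
    have h1 : v ⬝ᵥ ((H0 * H0 + H1 * H1) *ᵥ v) = 0 := by
      rw [h, ← Matrix.mulVec_mulVec, hv, Matrix.mulVec_zero, dotProduct_zero]
    have s0 : H0ᵀ = H0 := by
      have := hH0.1.eq; rwa [conjTranspose_eq_transpose_of_trivial] at this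
    have s1 : H1ᵀ = H1 := by
      have := hH1.1.eq; rwa [conjTranspose_eq_transpose_of_trivial] at this
    have g : ∀ K : Matrix n n ℝ, Kᵀ = K → v ⬝ᵥ (K *ᵥ (K *ᵥ v)) = (K *ᵥ v) ⬝ᵥ (K *ᵥ v) := by
      intro K hK
      rw [Matrix.dotProduct_mulVec, ← Matrix.mulVec_transpose, hK]
    rw [Matrix.add_mulVec, dotProduct_add, ← Matrix.mulVec_mulVec, ← Matrix.mulVec_mulVec,
      g H0 s0, g H1 s1] at h1
    exact h1
  have n0 : 0 ≤ (H0 *ᵥ v) ⬝ᵥ (H0 *ᵥ v) := by
    simp only [dotProduct]; exact Finset.sum_nonneg fun i _ => mul_self_nonneg _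
  have n1 : 0 ≤ (H1 *ᵥ v) ⬝ᵥ (H1 *ᵥ v) := by
    simp only [dotProduct]; exact Finset.sum_nonneg fun i _ => mul_self_nonneg _
  constructor
  · exact dotProduct_self_eq_zero.1 (by linarith)
  · exact dotProduct_self_eq_zero.1 (by linarith)

end GAP

theorem gap (hYOUNG : S_YOUNG) (hLYAP : S_LYAP) : S_GAP := by
  intro n _ _ H H0 H1 L hH hH0 hH1 hsum hL
  have s0 : H0ᵀ = H0 := by
    have := hH0.1.eq; rwa [conjTranspose_eq_transpose_of_trivial] at this
  have s1 : H1ᵀ = H1 := by
    have := hH1.1.eq; rwa [conjTranspose_eq_transpose_of_trivial] at this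
  have sH : Hᵀ = H := by
    have := hH.1.eq; rwa [conjTranspose_eq_transpose_of_trivial] at this
  have hYs : (H0 * H0 - H1 * H1)ᵀ = H0 * H0 - H1 * H1 := by
    rw [transpose_sub, transpose_mul, transpose_mul, s0, s1]
  have hker : ∀ v : n → ℝ, H *ᵥ v = 0 → (H0 * H0 - H1 * H1) *ᵥ v = 0 := by
    intro v hv
    obtain ⟨a, b⟩ := GAP.ker_of H H0 H1 hH0 hH1 hsum v hv
    rw [Matrix.sub_mulVec, ← Matrix.mulVec_mulVec, ← Matrix.mulVec_mulVec, a, b]
    simp
  obtain ⟨M, hMs, hM, hMk⟩ := GAP.lsol H (H0 * H0 - H1 * H1) hH hYs hker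
  have p0 := GAP.psd_sq H0 hH0
  have p1 := GAP.psd_sq H1 hH1
  -- `H ± M` are PSD
  have hP : (H + M).PosSemidef := by
    refine hLYAP n H (H + M) hH (by rw [transpose_add, sH, hMs]) ?_ ?_
    · have e : H * (H + M) + (H + M) * H = 3 • (H0 * H0) + H1 * H1 := by
        have : H * (H + M) + (H + M) * H = 2 • (H * H) + (H * M + M * H) := by noncomm_ring
        rw [this, hM, ← hsum]; noncomm_ring
      rw [e]
      have h3 : (3 • (H0 * H0)).PosSemidef := by
        have := p0.smul (show (0 : ℝ) ≤ 3 by norm_num)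
        convert this using 1
        ext i j; simp
      exact h3.add p1
    · intro v hv
      rw [Matrix.add_mulVec, hv, hMk v hv, add_zero]
  have hN : (H - M).PosSemidef := by
    refine hLYAP n H (H - M) hH (by rw [transpose_sub, sH, hMs]) ?_ ?_
    · have e : H * (H - M) + (H - M) * H = H0 * H0 + 3 • (H1 * H1) := by
        have : H * (H - M) + (H - M) * H = 2 • (H * H) - (H * M + M * H) := by noncomm_ring
        rw [this, hM, ← hsum]; noncomm_ring
      rw [e]
      have h3 : (3 • (H1 * H1)).PosSemidef := by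
        have := p1.smul (show (0 : ℝ) ≤ 3 by norm_num)
        convert this using 1
        ext i j; simp
      exact p0.add h3
    · intro v hv
      rw [Matrix.sub_mulVec, hv, hMk v hv, sub_zero]
  have r2 : Real.sqrt 2 * Real.sqrt 2 = 2 := Real.mul_self_sqrt (by norm_num)
  have q0 : (Real.sqrt 2 • H0).PosSemidef := hH0.smul (Real.sqrt_nonneg 2)
  have q1 : (Real.sqrt 2 • H1).PosSemidef := hH1.smul (Real.sqrt_nonneg 2)
  have y0 := hYOUNG n (Real.sqrt 2 • H0) (H + M) q0 hP
  have y1 := hYOUNG n (Real.sqrt 2 • H1) (H - M) q1 hN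
  simp only [Matrix.smul_mul, Matrix.mul_smul, smul_smul, r2, trace_smul, smul_eq_mul] at y0 y1
  -- `2 √2` from the cube
  have c1 : trace ((H + M) * (H + M) * (H + M)) + trace ((H - M) * (H - M) * (H - M))
      = 2 * trace (H * H * H) + 6 * trace (H * M * M) := by
    rw [← trace_add]
    have e : (H + M) * (H + M) * (H + M) + (H - M) * (H - M) * (H - M)
        = H * H * H + H * H * H + (H * M * M + H * M * M) + (M * H * M + M * H * M)
          + (M * M * H + M * M * H) := by noncomm_ring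
    rw [e]
    simp only [trace_add]
    have t1 : trace (M * H * M) = trace (H * M * M) := by
      rw [Matrix.mul_assoc, Matrix.trace_mul_comm]
    have t2 : trace (M * M * H) = trace (H * M * M) := by
      rw [Matrix.trace_mul_comm, ← Matrix.mul_assoc]
    rw [t1, t2]; ring
  have c2 : trace (H0 * H0 * (H + M)) + trace (H1 * H1 * (H - M))
      = trace (H * H * H) + 2 * trace (H * M * M) := by
    rw [← trace_add]
    have e : H0 * H0 * (H + M) + H1 * H1 * (H - M)
        = (H0 * H0 + H1 * H1) * H + (H0 * H0 - H1 * H1) * M := by noncomm_ring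
    rw [e, hsum, ← hM, trace_add, Matrix.add_mul, trace_add]
    have t1 : trace (M * H * M) = trace (H * M * M) := by
      rw [Matrix.mul_assoc, Matrix.trace_mul_comm]
    rw [t1]; ring
  have c3 : trace ((H0 * H0 - H1 * H1) * L) - trace (H * L * L) =
      trace (H * M * M) - trace (H * (L - M) * (L - M)) := by
    rw [← hM]
    have e : H * (L - M) * (L - M) = H * L * L - H * L * M - H * M * L + H * M * M := by
      noncomm_ring
    rw [e, Matrix.add_mul, trace_add, trace_add, trace_sub, trace_sub]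
    have t1 : trace (M * H * L) = trace (H * L * M) := by
      rw [Matrix.mul_assoc, Matrix.trace_mul_comm]
    rw [t1]; ring
  have c4 : 0 ≤ trace (H * (L - M) * (L - M)) :=
    GAP.tr_psd H (L - M) hH (by rw [transpose_sub, hL, hMs])
  have e0 : (3 : ℝ) * (2 * trace (H0 * H0 * (H + M))) ≤
      2 * (2 * Real.sqrt 2 * trace (H0 * H0 * H0)) + trace ((H + M) * (H + M) * (H + M)) := by
    nlinarith [y0]
  have e1 : (3 : ℝ) * (2 * trace (H1 * H1 * (H - M))) ≤
      2 * (2 * Real.sqrt 2 * trace (H1 * H1 * H1)) + trace ((H - M) * (H - M) * (H - M)) := by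
    nlinarith [y1]
  rw [c3]
  nlinarith [e0, e1, c1, c2, c4]

end Vale.Agent.P075
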