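import Vale.Agent.P075.Stmt
import Vale.Agent.P075.Arr

/-!
# P075: exact sampling of the dyadic triangular form on a lattice
-/

open MeasureTheory Set Finset

namespace Vale.Agent.P075.Dy

instance invR2 : (volume : Measure (ℝ × ℝ)).IsAddLeftInvariant :=
  inferInstanceAs ((volume : Measure ℝ).prod (volume : Measure ℝ)).IsAddLeftInvariant

instance invR3 : (volume : Measure (ℝ × ℝ × ℝ)).IsAddLeftInvariant :=
  inferInstanceAs ((volume : Measure ℝ).prod (volume : Measure (ℝ × ℝ))).IsAddLeftInvariant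

/-- the small half-open cube `[0,δ)³` -/
def UU (δ : ℝ) : Set (ℝ × ℝ × ℝ) := Set.Ico 0 δ ×ˢ Set.Ico 0 δ ×ˢ Set.Ico 0 δ

theorem UU_meas (δ : ℝ) : MeasurableSet (UU δ) :=
  measurableSet_Ico.prod (measurableSet_Ico.prod measurableSet_Ico)

/-- lattice vector -/
def vv (δ : ℝ) (N : ℕ) (n t : ℕ × ℕ × ℕ) : ℝ × ℝ × ℝ :=
  (δ * ((N * n.1 + t.1 : ℕ) : ℝ), δ * ((N * n.2.1 + t.2.1 : ℕ) : ℝ), δ * ((N * n.2.2 + t.2.2 : ℕ) : ℝ))

/-- `x` is in the interval `[δ N n, δ N (n+1))` iff it is in exactly one small interval -/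
theorem mem_Ico_iff {δ : ℝ} (hδ : 0 < δ) (N n : ℕ) (x : ℝ) :
    x ∈ Set.Ico (δ * (N * n)) (δ * (N * (n + 1))) ↔
      ∃ a ∈ Finset.range N, x - δ * ((N * n + a : ℕ) : ℝ) ∈ Set.Ico 0 δ := by
  constructor
  · rintro ⟨h1, h2⟩
    have h3 : 0 ≤ x / δ - N * n := by
      rw [sub_nonneg, le_div_iff₀ hδ]; linarith
    refine ⟨⌊x / δ - N * n⌋₊, ?_, ?_⟩
    · rw [Finset.mem_range, Nat.floor_lt h3]
      rw [sub_lt_iff_lt_add, div_lt_iff₀ hδ]
      nlinarith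
    · have h4 := Nat.floor_le h3
      have h5 := Nat.lt_floor_add_one (x / δ - N * n)
      push_cast
      rw [Set.mem_Ico]
      have h6 : x = δ * (x / δ) := by field_simp
      constructor
      · nlinarith
      · nlinarith
  · rintro ⟨a, ha, h1, h2⟩
    rw [Finset.mem_range] at ha
    have ha' : (a : ℝ) + 1 ≤ N := by exact_mod_cast ha
    have ha0 : (0 : ℝ) ≤ a := Nat.cast_nonneg a
    push_cast at h1 h2
    constructor
    · nlinarith
    · nlinarith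

theorem uniq_small {δ : ℝ} (hδ : 0 < δ) {a b : ℕ} {x : ℝ} (ha : x - δ * (a : ℝ) ∈ Set.Ico 0 δ)
    (hb : x - δ * (b : ℝ) ∈ Set.Ico 0 δ) : a = b := by
  obtain ⟨h1, h2⟩ := ha
  obtain ⟨h3, h4⟩ := hb
  have h5 : (a : ℝ) < b + 1 := by nlinarith
  have h6 : (b : ℝ) < a + 1 := by nlinarith
  have h7 : a < b + 1 := by exact_mod_cast h5
  have h8 : b < a + 1 := by exact_mod_cast h6
  omega

/-- index set of the small cubes in a cell -/
def TT (N : ℕ) : Finset (ℕ × ℕ × ℕ) := Finset.range N ×ˢ Finset.range N ×ˢ Finset.range N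

/-- the cell of side `δ N` with indices `n` -/
def cellSet (δ : ℝ) (N : ℕ) (n : ℕ × ℕ × ℕ) : Set (ℝ × ℝ × ℝ) :=
  Set.Ico (δ * (N * n.1)) (δ * (N * (n.1 + 1))) ×ˢ
    Set.Ico (δ * (N * n.2.1)) (δ * (N * (n.2.1 + 1))) ×ˢ
      Set.Ico (δ * (N * n.2.2)) (δ * (N * (n.2.2 + 1)))

theorem cell_eq {δ : ℝ} (hδ : 0 < δ) (N : ℕ) (n : ℕ × ℕ × ℕ) :
    cellSet δ N n = ⋃ t ∈ TT N, {x | x - vv δ N n t ∈ UU δ} := by
  ext x
  simp only [cellSet, Set.mem_prod, mem_Ico_iff hδ, Set.mem_iUnion, TT, Finset.mem_product, vv, UU,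
    Set.mem_ofPred_eq, Prod.fst_sub, Prod.snd_sub]
  constructor
  · rintro ⟨⟨a, ha, ha'⟩, ⟨b, hb, hb'⟩, ⟨c, hc, hc'⟩⟩
    exact ⟨(a, b, c), ⟨ha, hb, hc⟩, ha', hb', hc'⟩
  · rintro ⟨t, ⟨ha, hb, hc⟩, ha', hb', hc'⟩
    exact ⟨⟨t.1, ha, ha'⟩, ⟨t.2.1, hb, hb'⟩, ⟨t.2.2, hc, hc'⟩⟩

theorem setIntegral_cell {δ : ℝ} (hδ : 0 < δ) (N : ℕ) (n : ℕ × ℕ × ℕ) (G : ℝ × ℝ × ℝ → ℝ)
    (hG : IntegrableOn G (cellSet δ N n)) :
    ∫ x in cellSet δ N n, G x = ∑ t ∈ TT N, ∫ u in UU δ, G (vv δ N n t + u) := by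
  rw [cell_eq hδ N n, integral_biUnion_finset]
  · refine Finset.sum_congr rfl fun t _ => ?_
    have h := (measurePreserving_add_left (volume : Measure (ℝ × ℝ × ℝ))
      (vv δ N n t)).setIntegral_preimage_emb (measurableEmbedding_addLeft _) G
      {x | x - vv δ N n t ∈ UU δ}
    rw [← h]
    congr 1
    congr 1
    ext u
    simp
  · intro t _
    exact measurableSet_preimage (measurable_id.sub_const _) (UU_meas δ)
  · intro t ht s hs hts
    rw [Function.onFun, Set.disjoint_left]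
    intro x hx hy
    apply hts
    obtain ⟨h1, h2, h3⟩ := hx
    obtain ⟨g1, g2, g3⟩ := hy
    simp only [vv, Prod.fst_sub, Prod.snd_sub] at h1 h2 h3 g1 g2 g3
    have e1 := uniq_small hδ h1 g1
    have e2 := uniq_small hδ h2 g2
    have e3 := uniq_small hδ h3 g3
    ext
    · omega
    · omega
    · omega
  · intro t ht
    refine hG.mono_set ?_
    rw [cell_eq hδ N n]
    exact Set.subset_biUnion_of_mem (u := fun t => {x | x - vv δ N n t ∈ UU δ}) ht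

theorem dyad_eq (b : ℤ) (l n : ℕ) :
    dyad (b + (l + 1 : ℕ)) n =
      Set.Ico ((2 : ℝ) ^ b * (((2 ^ (l + 1) : ℕ) : ℝ) * n))
        ((2 : ℝ) ^ b * (((2 ^ (l + 1) : ℕ) : ℝ) * (n + 1))) := by
  unfold dyad
  rw [zpow_add₀ (by norm_num : (2 : ℝ) ≠ 0), zpow_natCast]
  push_cast
  rw [mul_assoc, mul_assoc]

theorem haar_eval (b : ℤ) (l n a : ℕ) (ha : a < 2 ^ (l + 1)) (u : ℝ)
    (hu : u ∈ Set.Ico 0 ((2 : ℝ) ^ b)) :
    haar (b + (l + 1 : ℕ)) n ((2 : ℝ) ^ b * ((2 ^ (l + 1) * n + a : ℕ) : ℝ) + u) = sg l a := by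
  have hδ : (0 : ℝ) < (2 : ℝ) ^ b := by positivity
  obtain ⟨h0, h1⟩ := hu
  have e1 : (2 : ℝ) ^ (b + (l + 1 : ℕ)) = (2 : ℝ) ^ b * (2 * 2 ^ l) := by
    rw [zpow_add₀ (by norm_num : (2 : ℝ) ≠ 0), zpow_natCast, pow_succ]
    ring
  unfold haar sg
  rw [e1]
  push_cast
  have e2 : (2 : ℝ) ^ (l + 1) = 2 * 2 ^ l := by rw [pow_succ]; ring
  rw [e2]
  have ha0 : (0 : ℝ) ≤ a := Nat.cast_nonneg a
  set δ := (2 : ℝ) ^ b with hδd
  by_cases h : a < 2 ^ l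
  · rw [if_pos h]
    have h' : (a : ℝ) + 1 ≤ 2 ^ l := by exact_mod_cast h
    rw [Set.indicator_of_mem, Set.indicator_of_notMem]
    · norm_num
    · rw [Set.mem_Ico, not_and_or]
      left
      push Not
      nlinarith
    · constructor
      · nlinarith
      · nlinarith
  · rw [if_neg h]
    have h' : (2 : ℝ) ^ l ≤ a := by exact_mod_cast (not_lt.1 h)
    have h2 : (a : ℝ) + 1 ≤ 2 ^ (l + 1) := by exact_mod_cast ha
    rw [e2] at h2
    rw [Set.indicator_of_notMem, Set.indicator_of_mem]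
    · norm_num
    · constructor
      · nlinarith
      · nlinarith
    · rw [Set.mem_Ico, not_and_or]
      right
      push Not
      nlinarith

end Vale.Agent.P075.Dy
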