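import Vale.Agent.P075.Sample

/-!
# P075: exact sampling of the dyadic triangular form on a lattice, part 2
-/

open MeasureTheory Set Finset

namespace Vale.Agent.P075.Dy

/-- sampled arrays -/
def ar0 (F : ℝ × ℝ → ℝ) (δ : ℝ) (u : ℝ × ℝ × ℝ) (a b : ℕ) : ℝ := F (δ * a + u.1, δ * b + u.2.1)
/-- sampled arrays -/
def ar1 (F : ℝ × ℝ → ℝ) (δ : ℝ) (u : ℝ × ℝ × ℝ) (a b : ℕ) : ℝ := F (δ * a + u.2.1, δ * b + u.2.2)
/-- sampled arrays -/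
def ar2 (F : ℝ × ℝ → ℝ) (δ : ℝ) (u : ℝ × ℝ × ℝ) (a b : ℕ) : ℝ := F (δ * a + u.2.2, δ * b + u.1)

theorem haar_measurable (k : ℤ) (n : ℕ) : Measurable (haar k n) := by
  unfold haar
  exact (measurable_const.indicator measurableSet_Ico).sub
    (measurable_const.indicator measurableSet_Ico)

theorem haar_bdd (k : ℤ) (n : ℕ) (x : ℝ) : |haar k n x| ≤ 2 := by
  unfold haar
  refine (abs_sub _ _).trans ?_
  have h : ∀ s : Set ℝ, |s.indicator (fun _ => (1 : ℝ)) x| ≤ 1 := by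
    intro s
    by_cases hx : x ∈ s
    · rw [Set.indicator_of_mem hx]; norm_num
    · rw [Set.indicator_of_notMem hx]; norm_num
  linarith [h (Set.Ico ((2 : ℝ) ^ k * n) ((2 : ℝ) ^ k * (n + 1 / 2))),
    h (Set.Ico ((2 : ℝ) ^ k * (n + 1 / 2)) ((2 : ℝ) ^ k * (n + 1)))]

/-- the integrand of `LForm` -/
noncomputable def GG (k : ℤ) (n : ℕ × ℕ × ℕ) (F₀ F₁ F₂ : ℝ × ℝ → ℝ) (x : ℝ × ℝ × ℝ) : ℝ :=
  F₀ (x.1, x.2.1) * F₁ (x.2.1, x.2.2) * F₂ (x.2.2, x.1) *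
      (haar k n.1 x.1 * haar k n.2.1 x.2.1 * haar k n.2.2 x.2.2)

theorem GG_meas {F₀ F₁ F₂ : ℝ × ℝ → ℝ} (h0 : Measurable F₀) (h1 : Measurable F₁)
    (h2 : Measurable F₂) (k : ℤ) (n : ℕ × ℕ × ℕ) : Measurable (GG k n F₀ F₁ F₂) := by
  unfold GG
  have a0 : Measurable fun x : ℝ × ℝ × ℝ => F₀ (x.1, x.2.1) :=
    h0.comp (measurable_fst.prodMk (measurable_fst.comp measurable_snd))
  have a1 : Measurable fun x : ℝ × ℝ × ℝ => F₁ (x.2.1, x.2.2) :=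
    h1.comp ((measurable_fst.comp measurable_snd).prodMk (measurable_snd.comp measurable_snd))
  have a2 : Measurable fun x : ℝ × ℝ × ℝ => F₂ (x.2.2, x.1) :=
    h2.comp ((measurable_snd.comp measurable_snd).prodMk measurable_fst)
  have b0 : Measurable fun x : ℝ × ℝ × ℝ => haar k n.1 x.1 :=
    (haar_measurable k n.1).comp measurable_fst
  have b1 : Measurable fun x : ℝ × ℝ × ℝ => haar k n.2.1 x.2.1 :=
    (haar_measurable k n.2.1).comp (measurable_fst.comp measurable_snd)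
  have b2 : Measurable fun x : ℝ × ℝ × ℝ => haar k n.2.2 x.2.2 :=
    (haar_measurable k n.2.2).comp (measurable_snd.comp measurable_snd)
  exact ((a0.mul a1).mul a2).mul ((b0.mul b1).mul b2)

theorem GG_bdd {F₀ F₁ F₂ : ℝ × ℝ → ℝ} (h0 : ∃ M : ℝ, ∀ x, |F₀ x| ≤ M)
    (h1 : ∃ M : ℝ, ∀ x, |F₁ x| ≤ M) (h2 : ∃ M : ℝ, ∀ x, |F₂ x| ≤ M) :
    ∃ M : ℝ, ∀ k n x, |GG k n F₀ F₁ F₂ x| ≤ M := by
  obtain ⟨M0, h0⟩ := h0
  obtain ⟨M1, h1⟩ := h1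
  obtain ⟨M2, h2⟩ := h2
  have p0 : 0 ≤ M0 := (abs_nonneg _).trans (h0 (0, 0))
  have p1 : 0 ≤ M1 := (abs_nonneg _).trans (h1 (0, 0))
  have p2 : 0 ≤ M2 := (abs_nonneg _).trans (h2 (0, 0))
  refine ⟨M0 * M1 * M2 * (2 * 2 * 2), fun k n x => ?_⟩
  unfold GG
  rw [abs_mul, abs_mul, abs_mul, abs_mul, abs_mul]
  gcongr
  · exact h0 _
  · exact h1 _
  · exact h2 _
  · exact haar_bdd _ _ _
  · exact haar_bdd _ _ _
  · exact haar_bdd _ _ _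

theorem cell_finite (δ : ℝ) (N : ℕ) (n : ℕ × ℕ × ℕ) : volume (cellSet δ N n) ≠ ⊤ := by
  unfold cellSet
  exact (((Metric.isBounded_Ico _ _).prod ((Metric.isBounded_Ico _ _).prod
    (Metric.isBounded_Ico _ _))).measure_lt_top).ne

theorem UU_finite (δ : ℝ) : volume (UU δ) ≠ ⊤ := by
  unfold UU
  exact (((Metric.isBounded_Ico _ _).prod ((Metric.isBounded_Ico _ _).prod
    (Metric.isBounded_Ico _ _))).measure_lt_top).ne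

theorem integrableOn_of_bdd {G : ℝ × ℝ × ℝ → ℝ} (hG : Measurable G) {M : ℝ}
    (hM : ∀ x, |G x| ≤ M) {s : Set (ℝ × ℝ × ℝ)} (hs : volume s ≠ ⊤) : IntegrableOn G s :=
  Measure.integrableOn_of_bounded hs hG.aestronglyMeasurable
    (Filter.Eventually.of_forall fun x => by rw [Real.norm_eq_abs]; exact hM x)

theorem GG_eval (b : ℤ) (l : ℕ) (n t : ℕ × ℕ × ℕ) (ht : t ∈ TT (2 ^ (l + 1)))
    (F₀ F₁ F₂ : ℝ × ℝ → ℝ) (u : ℝ × ℝ × ℝ) (hu : u ∈ UU ((2 : ℝ) ^ b)) :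
    GG (b + (l + 1 : ℕ)) n F₀ F₁ F₂ (vv ((2 : ℝ) ^ b) (2 ^ (l + 1)) n t + u) =
      ar0 F₀ ((2 : ℝ) ^ b) u (2 ^ (l + 1) * n.1 + t.1) (2 ^ (l + 1) * n.2.1 + t.2.1) *
      ar1 F₁ ((2 : ℝ) ^ b) u (2 ^ (l + 1) * n.2.1 + t.2.1) (2 ^ (l + 1) * n.2.2 + t.2.2) *
      ar2 F₂ ((2 : ℝ) ^ b) u (2 ^ (l + 1) * n.2.2 + t.2.2) (2 ^ (l + 1) * n.1 + t.1) *
      (sg l t.1 * sg l t.2.1 * sg l t.2.2) := by
  simp only [TT, Finset.mem_product, Finset.mem_range] at ht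
  obtain ⟨h1, h2, h3⟩ := ht
  obtain ⟨g1, g2, g3⟩ := hu
  unfold GG ar0 ar1 ar2 vv
  simp only [Prod.fst_add, Prod.snd_add]
  rw [haar_eval b l n.1 t.1 h1 u.1 g1, haar_eval b l n.2.1 t.2.1 h2 u.2.1 g2,
    haar_eval b l n.2.2 t.2.2 h3 u.2.2 g3]

theorem LForm_eq {F₀ F₁ F₂ : ℝ × ℝ → ℝ} (h0 : Adm F₀) (h1 : Adm F₁) (h2 : Adm F₂)
    (b : ℤ) (l : ℕ) (n : ℕ × ℕ × ℕ) :
    LForm (b + (l + 1 : ℕ)) n F₀ F₁ F₂ = ((2 : ℝ) ^ (b + (l + 1 : ℕ)))⁻¹ *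
      ∫ u in UU ((2 : ℝ) ^ b), Jarr l n.1 n.2.1 n.2.2 (ar0 F₀ ((2 : ℝ) ^ b) u)
        (ar1 F₁ ((2 : ℝ) ^ b) u) (ar2 F₂ ((2 : ℝ) ^ b) u) := by
  have hδ : (0 : ℝ) < (2 : ℝ) ^ b := by positivity
  obtain ⟨M, hM⟩ := GG_bdd h0.bdd h1.bdd h2.bdd
  have hmeas := GG_meas h0.meas h1.meas h2.meas (b + (l + 1 : ℕ)) n
  have e1 : LForm (b + (l + 1 : ℕ)) n F₀ F₁ F₂ = ((2 : ℝ) ^ (b + (l + 1 : ℕ)))⁻¹ *
      ∫ x in cellSet ((2 : ℝ) ^ b) (2 ^ (l + 1)) n, GG (b + (l + 1 : ℕ)) n F₀ F₁ F₂ x := by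
    unfold LForm cellSet
    rw [dyad_eq, dyad_eq, dyad_eq]
    rfl
  rw [e1, setIntegral_cell hδ _ _ _ (integrableOn_of_bdd hmeas (hM _ _) (cell_finite _ _ _)),
    ← integral_finsetSum]
  · congr 1
    refine setIntegral_congr_fun (UU_meas _) fun u hu => ?_
    show ∑ t ∈ TT (2 ^ (l + 1)), GG (b + (l + 1 : ℕ)) n F₀ F₁ F₂
      (vv ((2 : ℝ) ^ b) (2 ^ (l + 1)) n t + u) = _
    rw [Finset.sum_congr rfl fun t ht => GG_eval b l n t ht F₀ F₁ F₂ u hu]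
    unfold Jarr TT
    rw [Finset.sum_product]
    refine Finset.sum_congr rfl fun a _ => ?_
    rw [Finset.sum_product]
  · intro t _
    exact integrableOn_of_bdd (G := fun u => GG (b + (l + 1 : ℕ)) n F₀ F₁ F₂
      (vv ((2 : ℝ) ^ b) (2 ^ (l + 1)) n t + u)) (hmeas.comp (measurable_const_add _))
      (fun x => hM _ _ _) (UU_finite _)

end Vale.Agent.P075.Dy
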