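import Vale.Agent.P075.Sample2

/-!
# P075: sampling, the cubes of the norms
-/

open MeasureTheory Set Finset

namespace Vale.Agent.P075.Dy

/-- small square -/
def U2 (δ : ℝ) : Set (ℝ × ℝ) := Set.Ico 0 δ ×ˢ Set.Ico 0 δ

theorem U2_meas (δ : ℝ) : MeasurableSet (U2 δ) := measurableSet_Ico.prod measurableSet_Ico

theorem U2_finite (δ : ℝ) : volume (U2 δ) ≠ ⊤ :=
  ((Metric.isBounded_Ico _ _).prod (Metric.isBounded_Ico _ _)).measure_lt_top.ne

theorem integrableOn_of_bdd' {α : Type*} [MeasureSpace α] {G : α → ℝ} (hG : Measurable G) {M : ℝ}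
    (hM : ∀ x, |G x| ≤ M) {s : Set α} (hs : volume s ≠ ⊤) : IntegrableOn G s :=
  Measure.integrableOn_of_bounded hs hG.aestronglyMeasurable
    (Filter.Eventually.of_forall fun x => by rw [Real.norm_eq_abs]; exact hM x)

theorem const_Ico {δ : ℝ} (hδ : 0 < δ) (c : ℝ) : ∫ _x in Set.Ico 0 δ, c = δ * c := by
  rw [setIntegral_const, smul_eq_mul, Measure.real, Real.volume_Ico, sub_zero,
    ENNReal.toReal_ofReal hδ.le]

theorem marg1 {δ : ℝ} (hδ : 0 < δ) {g : ℝ × ℝ → ℝ} (hg : Measurable g) {M : ℝ}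
    (hM : ∀ x, |g x| ≤ M) : ∫ u in UU δ, g (u.2.1, u.2.2) = δ * ∫ w in U2 δ, g w := by
  unfold UU
  rw [Measure.volume_eq_prod, setIntegral_prod]
  · simp only [Prod.mk.eta]
    rw [const_Ico hδ]
    rfl
  · exact integrableOn_of_bdd' (α := ℝ × ℝ × ℝ) (hg.comp measurable_snd) (fun x => hM _)
      (UU_finite δ)

theorem marg0 {δ : ℝ} (hδ : 0 < δ) {g : ℝ × ℝ → ℝ} (hg : Measurable g) {M : ℝ}
    (hM : ∀ x, |g x| ≤ M) : ∫ u in UU δ, g (u.1, u.2.1) = δ * ∫ w in U2 δ, g w := by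
  unfold UU U2
  rw [Measure.volume_eq_prod, setIntegral_prod]
  · rw [Measure.volume_eq_prod, setIntegral_prod]
    · rw [← integral_const_mul]
      refine setIntegral_congr_fun measurableSet_Ico fun x _ => ?_
      rw [setIntegral_prod]
      · rw [← integral_const_mul]
        refine setIntegral_congr_fun measurableSet_Ico fun y _ => ?_
        exact const_Ico hδ (g (x, y))
      · exact integrableOn_of_bdd' (α := ℝ × ℝ)
          (hg.comp (measurable_const.prodMk measurable_fst)) (fun x => hM _) (U2_finite δ)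
    · exact integrableOn_of_bdd' (α := ℝ × ℝ) hg hM (U2_finite δ)
  · exact integrableOn_of_bdd' (α := ℝ × ℝ × ℝ)
      (hg.comp (measurable_fst.prodMk (measurable_fst.comp measurable_snd))) (fun x => hM _)
      (UU_finite δ)

theorem marg2 {δ : ℝ} (hδ : 0 < δ) {g : ℝ × ℝ → ℝ} (hg : Measurable g) {M : ℝ}
    (hM : ∀ x, |g x| ≤ M) : ∫ u in UU δ, g (u.2.2, u.1) = δ * ∫ w in U2 δ, g w := by
  have hs : ∫ w in U2 δ, g w = ∫ w in U2 δ, g w.swap := by
    unfold U2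
    rw [Measure.volume_eq_prod, setIntegral_prod_swap]
  rw [hs]
  unfold UU U2
  rw [Measure.volume_eq_prod, setIntegral_prod]
  · rw [Measure.volume_eq_prod, setIntegral_prod]
    · rw [← integral_const_mul]
      refine setIntegral_congr_fun measurableSet_Ico fun x _ => ?_
      rw [setIntegral_prod]
      · exact const_Ico hδ (∫ y in Set.Ico 0 δ, g (y, x))
      · exact integrableOn_of_bdd' (α := ℝ × ℝ)
          (hg.comp (measurable_snd.prodMk measurable_const)) (fun x => hM _) (U2_finite δ)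
    · exact integrableOn_of_bdd' (α := ℝ × ℝ) (hg.comp measurable_swap) (fun x => hM _)
        (U2_finite δ)
  · exact integrableOn_of_bdd' (α := ℝ × ℝ × ℝ)
      (hg.comp ((measurable_snd.comp measurable_snd).prodMk measurable_fst)) (fun x => hM _)
      (UU_finite δ)

/-- big square -/
theorem big_eq {δ : ℝ} (hδ : 0 < δ) (N : ℕ) :
    (Set.Ico 0 (δ * N) ×ˢ Set.Ico 0 (δ * N) : Set (ℝ × ℝ)) =
      ⋃ t ∈ Finset.range N ×ˢ Finset.range N,
        {x : ℝ × ℝ | x - (δ * (t.1 : ℝ), δ * (t.2 : ℝ)) ∈ U2 δ} := by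
  have key : ∀ x : ℝ, x ∈ Set.Ico 0 (δ * N) ↔ ∃ a ∈ Finset.range N, x - δ * (a : ℝ) ∈ Set.Ico 0 δ := by
    intro x
    have h := mem_Ico_iff hδ N 0 x
    simp only [Nat.cast_zero, mul_zero, zero_add, mul_one] at h
    exact h
  ext x
  simp only [Set.mem_prod, key, Set.mem_iUnion, Finset.mem_product, U2,
    Set.mem_ofPred_eq, Prod.fst_sub, Prod.snd_sub]
  constructor
  · rintro ⟨⟨a, ha, ha'⟩, ⟨b, hb, hb'⟩⟩
    exact ⟨(a, b), ⟨ha, hb⟩, ha', hb'⟩
  · rintro ⟨t, ⟨ha, hb⟩, ha', hb'⟩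
    exact ⟨⟨t.1, ha, ha'⟩, ⟨t.2, hb, hb'⟩⟩

theorem sum_small {δ : ℝ} (hδ : 0 < δ) (N : ℕ) {g : ℝ × ℝ → ℝ} (hg : Measurable g) {M : ℝ}
    (hM : ∀ x, |g x| ≤ M) :
    ∑ a ∈ Finset.range N, ∑ b ∈ Finset.range N, ∫ w in U2 δ, g (δ * a + w.1, δ * b + w.2) =
      ∫ x in (Set.Ico 0 (δ * N) ×ˢ Set.Ico 0 (δ * N) : Set (ℝ × ℝ)), g x := by
  rw [big_eq hδ N, integral_biUnion_finset]
  · rw [Finset.sum_product]
    refine Finset.sum_congr rfl fun a _ => Finset.sum_congr rfl fun b _ => ?_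
    have h := (measurePreserving_add_left (volume : Measure (ℝ × ℝ))
      (δ * (a : ℝ), δ * (b : ℝ))).setIntegral_preimage_emb (measurableEmbedding_addLeft _) g
      {x : ℝ × ℝ | x - (δ * (a : ℝ), δ * (b : ℝ)) ∈ U2 δ}
    rw [← h]
    have e : ((fun x : ℝ × ℝ => (δ * (a : ℝ), δ * (b : ℝ)) + x) ⁻¹'
        {x : ℝ × ℝ | x - (δ * (a : ℝ), δ * (b : ℝ)) ∈ U2 δ}) = U2 δ := by
      ext u
      simp
    rw [e]
    rfl
  · intro t _
    exact measurableSet_preimage (measurable_id.sub_const _) (U2_meas δ)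
  · intro t ht s hs hts
    rw [Function.onFun, Set.disjoint_left]
    intro x hx hy
    apply hts
    obtain ⟨h1, h2⟩ := hx
    obtain ⟨g1, g2⟩ := hy
    simp only [Prod.fst_sub, Prod.snd_sub] at h1 h2 g1 g2
    have e1 := uniq_small hδ h1 g1
    have e2 := uniq_small hδ h2 g2
    exact Prod.ext e1 e2
  · intro t ht
    refine integrableOn_of_bdd' (α := ℝ × ℝ) hg hM ?_
    refine ((measure_mono ?_).trans_lt
      (((Metric.isBounded_Ico (0 : ℝ) (δ * N)).prod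
        (Metric.isBounded_Ico (0 : ℝ) (δ * N))).measure_lt_top)).ne
    rw [big_eq hδ N]
    exact Set.subset_biUnion_of_mem
      (u := fun t : ℕ × ℕ => {x : ℝ × ℝ | x - (δ * (t.1 : ℝ), δ * (t.2 : ℝ)) ∈ U2 δ}) ht

/-- the cube of the norm -/
noncomputable def cub (F : ℝ × ℝ → ℝ) : ℝ := ∫ x in Ici (0 : ℝ) ×ˢ Ici (0 : ℝ), |F x| ^ 3

theorem Adm.cube_bdd {F : ℝ × ℝ → ℝ} (hF : Adm F) : ∃ M : ℝ, ∀ x, |(|F x| ^ 3)| ≤ M := by
  obtain ⟨M, hM⟩ := hF.bdd
  refine ⟨M ^ 3, fun x => ?_⟩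
  rw [abs_of_nonneg (by positivity)]
  exact pow_le_pow_left₀ (abs_nonneg _) (hM x) 3

theorem Adm.cube_meas {F : ℝ × ℝ → ℝ} (hF : Adm F) : Measurable fun x => |F x| ^ 3 :=
  (continuous_abs.measurable.comp hF.meas).pow_const 3

theorem Adm.cube_int {F : ℝ × ℝ → ℝ} (hF : Adm F) : Integrable fun x => |F x| ^ 3 := by
  obtain ⟨M, hM⟩ := hF.cube_bdd
  have h1 : IntegrableOn (fun x => |F x| ^ 3) (tsupport F) :=
    integrableOn_of_bdd' (α := ℝ × ℝ) hF.cube_meas hM hF.supp.isCompact.measure_lt_top.ne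
  refine (integrableOn_iff_integrable_of_support_subset ?_).1 h1
  intro x hx
  rw [Function.mem_support] at hx
  apply subset_tsupport
  rw [Function.mem_support]
  intro h
  apply hx
  rw [h]
  norm_num

theorem cub_nonneg (F : ℝ × ℝ → ℝ) : 0 ≤ cub F :=
  integral_nonneg fun x => by positivity

theorem sum_le_cub {F : ℝ × ℝ → ℝ} (hF : Adm F) {δ : ℝ} (hδ : 0 < δ) (N : ℕ) :
    ∑ a ∈ Finset.range N, ∑ b ∈ Finset.range N,
      ∫ w in U2 δ, |F (δ * a + w.1, δ * b + w.2)| ^ 3 ≤ cub F := by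
  obtain ⟨M, hM⟩ := hF.cube_bdd
  rw [sum_small hδ N (g := fun x => |F x| ^ 3) hF.cube_meas hM]
  unfold cub
  refine setIntegral_mono_set hF.cube_int.integrableOn
    (Filter.Eventually.of_forall fun x => by positivity) ?_
  refine Filter.Eventually.of_forall fun x hx => ?_
  exact ⟨hx.1.1, hx.2.1⟩

end Vale.Agent.P075.Dy
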