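import Mathlib
import Vale.Agent.P075.Defs
import Vale.Agent.P075.Base

/-!
# P075, module STEP (assembly)
-/

namespace Vale.Agent.P075

open Matrix

namespace StepX

theorem sys_half {m n : Type} [Fintype m] [Fintype n] [DecidableEq n]
    {W : Matrix m n ℝ} {v : n → n → ℝ} {σ : n → ℝ} (h : Sys W v σ) :
    Sys ((1 / 2 : ℝ) • W) v (fun k => σ k / 2) where
  nn := fun k => by have := h.nn k; positivity
  orth := h.orth
  pars := h.pars
  diag := by
    intro k l
    rw [smul_mulVec, smul_mulVec, smul_dotProduct, dotProduct_smul, h.diag]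
    split_ifs <;> simp <;> ring

theorem sgn_sq {ι : Type} (x : Fin 2 × ι) : sgn x ^ 2 = 1 := by
  unfold sgn sg
  rcases x with ⟨i, a⟩
  fin_cases i <;> simp

end StepX

open StepX in
theorem step (hSYS : S_SYS) (hCLIP : S_CLIP) (hGAIN : S_GAIN) (hETA : S_ETA) (hINT : S_INT) :
    S_STEP := by
  classical
  intro ι₁ ι₂ ι₃ _ _ _ _ P Q
  set W := col P Q with hW
  have hsys := hSYS _ _ W
  let x : (Fin 2 × Fin 2) × ι₂ → ℝ := fun p =>
    sv (col (blk P p.1.1 p.1.2) (blk Q (p.1.1 + p.1.2) p.1.2)) p.2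
  have key := hINT ((Fin 2 × Fin 2) × ι₂) (Fin 2 × ι₂) x (sv W) (fun k l => dd (sb W) sgn k l)
    (fun p => (hSYS _ _ _).nn _) hsys.nn (fun k l => sq_nonneg _)
    (fun k l => dd_comm _ _ k l) ?_
  · have e : ∑ p, x p ^ 3 = ∑ i, ∑ j, Psi (col (blk P i j) (blk Q (i + j) j)) := by
      rw [Fintype.sum_prod_type, Fintype.sum_prod_type]
      rfl
    rw [e] at key
    exact key
  · intro s hs
    have hclip := fun i j => hCLIP _ _ _ _ _ (hSYS _ _ (col (blk P i j) (blk Q (i + j) j))) s hs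
    choose h h1 h2 using hclip
    obtain ⟨η, hη1, hη2⟩ := hETA ι₁ ι₂ ι₃ P Q s h h1
    have hg := hGAIN _ _ _ _ _ (sys_half hsys) sgn sgn_sq s hs η hη1
    rw [hη2] at hg
    have e1 : ∀ k, (2 * s ≤ sv W k / 2) ↔ (4 * s ≤ sv W k) := fun k => by
      constructor <;> intro h <;> linarith
    simp only [e1] at hg
    refine hg.trans ?_
    have e : ∑ p, (max (x p - s) 0) ^ 2 = ∑ i, ∑ j, ∑ k,
        (max (sv (col (blk P i j) (blk Q (i + j) j)) k - s) 0) ^ 2 := by
      rw [Fintype.sum_prod_type, Fintype.sum_prod_type]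
    rw [e]
    refine mul_le_mul_of_nonneg_left ?_ (by norm_num)
    exact Finset.sum_le_sum fun i _ => Finset.sum_le_sum fun j _ => h2 i j

end Vale.Agent.P075
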