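import Mathlib

/-!
# P075, Q2: the dyadic triangular Hilbert form (definitions of the statement)
-/

open MeasureTheory Set

namespace Vale.Agent.P075.Dy

/-- The dyadic interval `[2^k n, 2^k (n+1))` of scale `k` and index `n`. -/
def dyad (k : ℤ) (n : ℕ) : Set ℝ := Ico ((2 : ℝ) ^ k * n) ((2 : ℝ) ^ k * (n + 1))

/-- The function `h_I = 1_{left half of I} - 1_{right half of I}` of the dyadic interval
`I = dyad k n`. -/
noncomputable def haar (k : ℤ) (n : ℕ) (x : ℝ) : ℝ :=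
  (Ico ((2 : ℝ) ^ k * n) ((2 : ℝ) ^ k * (n + 1 / 2))).indicator (fun _ => (1 : ℝ)) x -
    (Ico ((2 : ℝ) ^ k * (n + 1 / 2)) ((2 : ℝ) ^ k * (n + 1))).indicator (fun _ => (1 : ℝ)) x

/-- The index triples `(n_{I_0}, n_{I_1}, n_{I_2})` of the triples of dyadic intervals of equal
scale in `𝒜_k`: the bitwise XOR of the three indices is `0`. -/
abbrev XorTriple : Type := {n : ℕ × ℕ × ℕ // n.1 ^^^ n.2.1 ^^^ n.2.2 = 0}

/-- `L_I(F₀,F₁,F₂)` for the triple `I = (I_0,I_1,I_2)` of dyadic intervals of scale `k` with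
indices `n.1, n.2.1, n.2.2`. -/
noncomputable def LForm (k : ℤ) (n : ℕ × ℕ × ℕ) (F₀ F₁ F₂ : ℝ × ℝ → ℝ) : ℝ :=
  ((2 : ℝ) ^ k)⁻¹ * ∫ x : ℝ × ℝ × ℝ in dyad k n.1 ×ˢ dyad k n.2.1 ×ˢ dyad k n.2.2,
    F₀ (x.1, x.2.1) * F₁ (x.2.1, x.2.2) * F₂ (x.2.2, x.1) *
      (haar k n.1 x.1 * haar k n.2.1 x.2.1 * haar k n.2.2 x.2.2)

/-- The dyadic triangular Hilbert form with coefficients `ε` and the finite set of scales `S`. -/
noncomputable def Lam (S : Finset ℤ) (ε : ℤ → ℝ) (F₀ F₁ F₂ : ℝ × ℝ → ℝ) : ℝ :=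
  ∑ k ∈ S, ε k * ∑' n : XorTriple, LForm k n F₀ F₁ F₂

/-- The `L³` norm over the quadrant `[0,∞)²`. -/
noncomputable def norm3 (F : ℝ × ℝ → ℝ) : ℝ :=
  (∫ x in Ici (0 : ℝ) ×ˢ Ici (0 : ℝ), |F x| ^ 3) ^ (1 / 3 : ℝ)

/-- Real, bounded, compactly supported, Lebesgue measurable functions. (`AEMeasurable` with respect
to Lebesgue measure is the same as Lebesgue measurable; every Borel function is allowed. Only the
values on the quadrant `[0,∞)²` matter below.) -/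
structure AdmL (F : ℝ × ℝ → ℝ) : Prop where
  meas : AEMeasurable F (volume : Measure (ℝ × ℝ))
  bdd : ∃ M : ℝ, ∀ x, |F x| ≤ M
  supp : HasCompactSupport F

end Vale.Agent.P075.Dy
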